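import Vale.Agent.P331.F.Rows

/-!
# The constant ratio: the sum over the levels and the targets, and the assembly
-/

set_option autoImplicit false
set_option linter.unusedSectionVars false

namespace Vale.Agent.P331.H146

open Finset Vale.Agent.P331 Vale.Agent.P331.H489 Vale.Agent.P331.H250 Vale.Agent.P331.H352
open Vale.Agent.P331.F
open scoped Classical ENNReal

/-- the sum over the levels -/
theorem sum_xx {B : ℕ} (hB : 2 ≤ B) (N : ℕ) :
    ∑ j ∈ Icc 1 N, ((xx B j : ℝ))⁻¹ ≤ (B : ℝ)⁻¹ := by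
  have hB' : (2 : ℝ) ≤ B := by exact_mod_cast hB
  have hB0 : (0 : ℝ) < B := by linarith
  have key : ∀ N : ℕ, ∑ j ∈ Icc 1 N, ((xx B j : ℝ))⁻¹ ≤ (B : ℝ)⁻¹ - ((B : ℝ) ^ (N + 1))⁻¹ := by
    intro N
    induction N with
    | zero => simp
    | succ N ih =>
      rw [sum_Icc_succ_top (by omega)]
      have h1 : ((xx B (N + 1) : ℝ))⁻¹ ≤ ((B : ℝ) ^ (N + 2))⁻¹ := by
        refine inv_anti₀ (by positivity) ?_
        unfold xx
        push_cast
        refine pow_le_pow_right₀ (by linarith) ?_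
        have h2 : N + 1 < 2 ^ (N + 1) := Nat.lt_two_pow_self
        have h3 : 2 ^ (N + 1) ≤ 200 ^ (N + 1) := Nat.pow_le_pow_left (by norm_num) _
        omega
      have h4 : ((B : ℝ) ^ (N + 1 + 1))⁻¹ = ((B : ℝ) ^ (N + 1))⁻¹ * (B : ℝ)⁻¹ := by
        rw [pow_succ (B : ℝ) (N + 1), mul_inv]
      have h5 : (B : ℝ)⁻¹ ≤ 1 / 2 := by
        rw [inv_le_comm₀ hB0 (by norm_num)]
        linarith
      have h6 : 0 ≤ ((B : ℝ) ^ (N + 1))⁻¹ := by positivity
      have h7 : ((B : ℝ) ^ (N + 2))⁻¹ = ((B : ℝ) ^ (N + 1))⁻¹ * (B : ℝ)⁻¹ := by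
        rw [pow_succ (B : ℝ) (N + 1), mul_inv]
      rw [h7] at h1
      rw [h4]
      nlinarith [mul_le_mul_of_nonneg_left h5 h6]
  refine (key N).trans ?_
  have : 0 ≤ ((B : ℝ) ^ (N + 1))⁻¹ := by positivity
  linarith

theorem rowMain_of (hC : RowCst) (hOk : RowOk) (hBl : RowBl) (hFin : RowFin) (hEnt : RowEnt) :
    RowMain := by
  obtain ⟨p, g, n, lam, B, hc⟩ := hC
  have hp0 := hc.p0
  have hp1 := hc.p1
  have hg0 := hc.g0
  have hgn := hc.gn
  have hn0 := hc.n0
  have hn1 := hc.n1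
  refine ⟨p / 2, half_pos hp0, fun E _ M hM => ?_⟩
  refine ⟨_, competitive_of_blame (D := frame E M p g n B hp0.le (by linarith)) hM
    (hOk E M hM p g n lam B _ _ hc) fun lt hlt b hb => ?_⟩
  have hw : (frame E M p g n B hp0.le (by linarith)).w
      (frame E M p g n B hp0.le (by linarith)).v = p := by
    simp [frame]
  rw [hw]
  set q : ℝ := (1 - p) * (g + n) with hq
  have hq0 : 0 < q := by rw [hq]; apply mul_pos <;> linarith
  have hq1 : q ≤ 1 := by rw [hq]; nlinarith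
  have hq2 : 3 / 4 * n ≤ q := by rw [hq]; nlinarith
  have hB16 := hc.B16
  have hB : (16 : ℝ) ≤ B := by exact_mod_cast hB16
  have hB0 : (0 : ℝ) < B := by linarith
  have hJ0 : ∀ z, 0 ≤ JJ q (DD M lt z) b := by
    intro z
    unfold JJ Th
    refine TH_nonneg (fun _ => hq0.le) (fun _ => hq1) _ fun N _ => ?_
    unfold F.ind
    split_ifs <;> norm_num
  have h1 : ∀ z ∈ univ.erase b, EX (fun _ => (frame E M p g n B hp0.le (by linarith)).w)
      (fun ω : E → Bool => if Blame (frame E M p g n B hp0.le (by linarith)) lt b z ω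
        then 1 else 0) ≤ p * ((B : ℝ)⁻¹ * JJ q (DD M lt z) b) := by
    intro z hz
    refine (hBl E M hM p g n lam B hp0.le (by linarith) hc lt hlt b z
      (ne_of_mem_erase hz)).trans ?_
    refine mul_le_mul_of_nonneg_left ?_ hp0.le
    have h2 : ∀ j ∈ Icc 1 (Fintype.card E), Th p univ (fun V => F.ind (∃ X ⊆ V, b ∈ X ∧
        Bad g (n / (1 - g)) B j (DD M lt z) (univ \ V) X)) ≤
        ((xx B j : ℝ))⁻¹ * JJ q (DD M lt z) b := by
      intro j hj
      refine hFin p g n lam B hc E (DD M lt z) ?_ j b (mem_Icc.1 hj).1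
      intro A A' hAA hA
      unfold DD at hA ⊢
      refine M.closure_subset_closure ?_ hA
      rintro e ⟨h1, h2⟩
      exact ⟨h1, hAA h2⟩
    refine (sum_le_sum h2).trans ?_
    rw [← sum_mul]
    exact mul_le_mul_of_nonneg_right (sum_xx (by omega) _) (hJ0 z)
  refine (sum_le_sum h1).trans ?_
  rw [← mul_sum, ← mul_sum]
  have h3 := hEnt E M hM lt hlt q hq0 hq1 b
  have h4 : (B : ℝ)⁻¹ * ∑ z ∈ univ.erase b, JJ q (DD M lt z) b ≤ 1 / 2 := by
    have h5 : (B : ℝ)⁻¹ * ∑ z ∈ univ.erase b, JJ q (DD M lt z) b ≤ (B : ℝ)⁻¹ * (1 / q) :=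
      mul_le_mul_of_nonneg_left h3 (by positivity)
    refine h5.trans ?_
    have h6 : 4 ≤ B * n := by
      have := hc.nB
      rwa [div_le_iff₀ hn0] at this
    rw [← one_div, one_div_mul_one_div, div_le_div_iff₀ (by positivity) (by norm_num)]
    nlinarith [mul_le_mul_of_nonneg_left hq2 hB0.le]
  nlinarith [mul_le_mul_of_nonneg_left h4 hp0.le]

end Vale.Agent.P331.H146
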