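import Vale.Agent.P331.F.Rows

/-!
# The constant ratio: significance (rows RowCtx and RowR)
-/

set_option autoImplicit false
set_option linter.unusedSectionVars false

namespace Vale.Agent.P331.H146

open Finset Vale.Agent.P331 Vale.Agent.P331.H489 Vale.Agent.P331.H250
open Vale.Agent.P331.F (Th Up Lv xx lev good ff vio Bad JJ Fam QJ HC Cst Need RowCtx RowR)
open scoped Classical

theorem ind_nonneg (P : Prop) : 0 ≤ F.ind P := by unfold F.ind; split_ifs <;> norm_num

theorem ind_mono {P Q : Prop} (h : P → Q) : F.ind P ≤ F.ind Q := by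
  unfold F.ind
  by_cases hP : P
  · rw [if_pos hP, if_pos (h hP)]
  · rw [if_neg hP]
    split_ifs <;> norm_num

/-- splitting off one element of the ground set -/
theorem TH_insert {E : Type} [Fintype E] [DecidableEq E] (r : E → ℝ) (S : Finset E) {e : E}
    (he : e ∉ S) (f : Finset E → ℝ) :
    TH r (insert e S) f = (1 - r e) * TH r S f + r e * TH r S (fun A => f (insert e A)) := by
  rw [TH_eq_sum, TH_eq_sum, TH_eq_sum, Finset.sum_powerset_insert he, mul_sum, mul_sum]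
  congr 1
  · refine sum_congr rfl fun G hG => ?_
    have hG' := mem_powerset.1 hG
    have h1 : insert e S \ G = insert e (S \ G) := by
      ext x
      simp only [mem_sdiff, mem_insert]
      constructor
      · rintro ⟨h | h, h'⟩
        · exact Or.inl h
        · exact Or.inr ⟨h, h'⟩
      · rintro (h | h)
        · exact ⟨Or.inl h, fun h' => he (h ▸ hG' h')⟩
        · exact ⟨Or.inr h.1, h.2⟩
    rw [h1, prod_insert (fun h => he (mem_sdiff.1 h).1)]
    ring
  · refine sum_congr rfl fun G hG => ?_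
    have hG' := mem_powerset.1 hG
    have h1 : insert e S \ insert e G = S \ G := by
      ext x
      simp only [mem_sdiff, mem_insert, not_or]
      constructor
      · rintro ⟨h | h, h2, h3⟩
        · exact absurd h h2
        · exact ⟨h, h3⟩
      · rintro ⟨h, h'⟩
        exact ⟨Or.inr h, fun h2 => he (h2 ▸ h), h'⟩
    rw [h1, prod_insert (fun h => he (hG' h))]
    ring

theorem Th_nonneg {E : Type} [Fintype E] {t : ℝ} (h0 : 0 ≤ t) (h1 : t ≤ 1) (S : Finset E)
    {f : Finset E → ℝ} (hf : ∀ G, 0 ≤ f G) : 0 ≤ Th t S f :=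
  TH_nonneg (fun _ => h0) (fun _ => h1) S fun G _ => hf G

theorem Th_mono {E : Type} [Fintype E] {t : ℝ} (h0 : 0 ≤ t) (h1 : t ≤ 1) (S : Finset E)
    {f g : Finset E → ℝ} (hf : ∀ G, G ⊆ S → f G ≤ g G) : Th t S f ≤ Th t S g :=
  TH_mono (fun _ => h0) (fun _ => h1) S hf

theorem xx_pos {B : ℕ} (hB : 0 < B) (j : ℕ) : (0 : ℝ) < xx B j := by
  unfold xx
  exact_mod_cast Nat.pow_pos hB

/-- `16 ^ (200 ^ j) ≤ xx B j` -/
theorem xx_ge {B : ℕ} (hB : 16 ≤ B) (j : ℕ) : (16 : ℝ) ^ (200 ^ j) ≤ xx B j := by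
  unfold xx
  push_cast
  exact pow_le_pow_left₀ (by norm_num) (by exact_mod_cast hB) _

theorem kap_le {B : ℕ} (hB : 16 ≤ B) (j : ℕ) :
    (2 : ℝ) ^ (lev B j).κ * (((lev B j).κ : ℝ) + 1) ^ 2 ≤ xx B j := by
  have h1 : (lev B j).κ + 1 = 200 ^ j := by
    show 200 ^ j - 1 + 1 = 200 ^ j
    have : 0 < 200 ^ j := Nat.pow_pos (by norm_num)
    omega
  have h2 : ((lev B j).κ : ℝ) + 1 ≤ 2 ^ (lev B j).κ := by
    have h := Nat.lt_two_pow_self (n := (lev B j).κ)
    exact_mod_cast h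
  have h3 : ((lev B j).κ : ℝ) + 1 ≥ 0 := by positivity
  calc (2 : ℝ) ^ (lev B j).κ * (((lev B j).κ : ℝ) + 1) ^ 2
      ≤ 2 ^ (lev B j).κ * (2 ^ (lev B j).κ) ^ 2 := by
        refine mul_le_mul_of_nonneg_left (pow_le_pow_left₀ h3 h2 2) (by positivity)
    _ = 8 ^ (lev B j).κ := by
        rw [← pow_succ', ← pow_mul, mul_comm, pow_mul]
        norm_num
    _ ≤ 16 ^ (200 ^ j) := by
        rw [← h1]
        calc (8 : ℝ) ^ (lev B j).κ ≤ 16 ^ (lev B j).κ :=
              pow_le_pow_left₀ (by norm_num) (by norm_num) _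
          _ ≤ _ := pow_le_pow_right₀ (by norm_num) (by omega)
    _ ≤ _ := xx_ge hB j

/-- the gap of the miss probability -/
theorem need_gap {E : Type} [Fintype E] {t : ℝ} (ht0 : 0 ≤ t) (ht1 : t ≤ 1) {l : Lv}
    (hδ : 0 < l.δ) {D : Finset E → Prop} {S G Y : Finset E} {f : E}
    (hfY : f ∈ Y) (h1 : good t l D S G Y) (h2 : ¬ good t l D S G (Y.erase f)) :
    l.δ / ((l.κ : ℝ) + 1) ^ 2 ≤ Th t (S \ G) (fun N =>
      F.ind (D (insert f (Y.erase f ∪ G ∪ N)) ∧ ¬ D (Y.erase f ∪ G ∪ N))) := by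
  obtain ⟨hc, hle⟩ := h1
  have hce : (Y.erase f).card = Y.card - 1 := card_erase_of_mem hfY
  have hpos : 0 < Y.card := card_pos.2 ⟨f, hfY⟩
  have h3 : l.δ / (((Y.erase f).card : ℝ) + 1) <
      Th t (S \ G) (fun N => F.ind (¬ D (Y.erase f ∪ G ∪ N))) := by
    by_contra hcon
    exact h2 ⟨by omega, not_lt.1 hcon⟩
  have hcast : (((Y.erase f).card : ℝ) + 1) = Y.card := by
    rw [hce]
    have : Y.card - 1 + 1 = Y.card := by omega
    exact_mod_cast this
  rw [hcast] at h3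
  have h4 : Th t (S \ G) (fun N => F.ind (¬ D (Y.erase f ∪ G ∪ N))) ≤
      Th t (S \ G) (fun N => F.ind (¬ D (Y ∪ G ∪ N))) + Th t (S \ G) (fun N =>
      F.ind (D (insert f (Y.erase f ∪ G ∪ N)) ∧ ¬ D (Y.erase f ∪ G ∪ N))) := by
    unfold Th
    rw [← TH_add]
    refine TH_mono (fun _ => ht0) (fun _ => ht1) _ fun N _ => ?_
    have e1 : insert f (Y.erase f ∪ G ∪ N) = Y ∪ G ∪ N := by
      ext x
      simp only [mem_insert, mem_union, mem_erase]
      by_cases hx : x = f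
      · subst hx
        simp [hfY]
      · simp [hx]
    rw [e1]
    unfold F.ind
    split_ifs with u v w
    all_goals first
      | (norm_num; done)
      | (exfalso; tauto)
  have hY1 : (0 : ℝ) < Y.card := by exact_mod_cast hpos
  have hY2 : (Y.card : ℝ) ≤ l.κ := by exact_mod_cast hc
  have h5 : l.δ / ((l.κ : ℝ) + 1) ^ 2 ≤ l.δ / Y.card - l.δ / (Y.card + 1) := by
    have e2 : l.δ / (Y.card : ℝ) - l.δ / (Y.card + 1) = l.δ / (Y.card * (Y.card + 1)) := by
      field_simp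
      ring
    rw [e2]
    refine div_le_div_of_nonneg_left hδ.le (by positivity) ?_
    nlinarith
  linarith

theorem rowCtx : RowCtx := by
  intro p g n lam B hC E _ D _ j f
  have hp0 := hC.p0
  have hp1 := hC.p1
  have hg0 := hC.g0
  have hgn := hC.gn
  have hn0 := hC.n0
  have hn1 := hC.n1
  have hB := hC.B16
  have ht0 : 0 ≤ n / (1 - g) := div_nonneg hn0.le (by linarith)
  have ht1 : n / (1 - g) ≤ 1 := by rw [div_le_one (by linarith)]; linarith
  have hxx := xx_pos (B := B) (by omega) j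
  have hδ : 0 < (lev B j).δ := by
    show 0 < ((xx B j : ℝ) ^ 20)⁻¹
    positivity
  set δ' : ℝ := (lev B j).δ / (((lev B j).κ : ℝ) + 1) ^ 2 with hδ'
  have hδ'0 : 0 < δ' := by rw [hδ']; positivity
  have h1 := hC.hc E (fun U => D (insert f U) ∧ ¬ D U) (univ.erase f) (lev B j).κ δ' hδ'0
  -- the factor
  have hfac : (2 : ℝ) ^ (lev B j).κ / δ' ≤ (xx B j : ℝ) ^ 23 := by
    have e1 : (2 : ℝ) ^ (lev B j).κ / δ' =
        (2 ^ (lev B j).κ * (((lev B j).κ : ℝ) + 1) ^ 2) * (xx B j : ℝ) ^ 20 := by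
      have e2 : (lev B j).δ = ((xx B j : ℝ) ^ 20)⁻¹ := rfl
      rw [hδ', e2]
      field_simp
    rw [e1]
    have h1x : (1 : ℝ) ≤ xx B j := by
      refine le_trans ?_ (xx_ge hB j)
      exact one_le_pow₀ (by norm_num)
    calc (2 ^ (lev B j).κ * (((lev B j).κ : ℝ) + 1) ^ 2) * (xx B j : ℝ) ^ 20
        ≤ (xx B j : ℝ) * (xx B j : ℝ) ^ 20 :=
          mul_le_mul_of_nonneg_right (kap_le hB j) (by positivity)
      _ = (xx B j : ℝ) ^ 21 := by ring
      _ ≤ _ := pow_le_pow_right₀ h1x (by norm_num)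
  have hJ0 : 0 ≤ JJ ((1 - p) * (g + n)) D f := by
    unfold JJ
    refine Th_nonneg (mul_nonneg (by linarith) (by linarith)) ?_ _ fun _ => ind_nonneg _
    nlinarith
  have h2 : (2 ^ (lev B j).κ / δ') ^ (2 * 600) * JJ ((1 - p) * (g + n)) D f ^ 600 ≤
      ((xx B j : ℝ) ^ 23) ^ 1200 * JJ ((1 - p) * (g + n)) D f ^ 600 := by
    refine mul_le_mul_of_nonneg_right ?_ (pow_nonneg hJ0 _)
    exact pow_le_pow_left₀ (by positivity) hfac _
  refine le_trans ?_ (h1.trans h2)
  -- remove `f` from the ground set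
  have h3 : Th p univ (fun V => Th g (univ \ V) (fun G =>
      F.ind (Need (n / (1 - g)) (lev B j) D V G f))) =
      (1 - p) * Th p (univ.erase f) (fun V => Th g (univ \ V) (fun G =>
        F.ind (Need (n / (1 - g)) (lev B j) D V G f))) +
      p * Th p (univ.erase f) (fun V => Th g (univ \ insert f V) (fun G =>
        F.ind (Need (n / (1 - g)) (lev B j) D (insert f V) G f))) := by
    have h := TH_insert (fun _ => p) (univ.erase f) (notMem_erase f univ)
      (fun V => Th g (univ \ V) (fun G =>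
        F.ind (Need (n / (1 - g)) (lev B j) D V G f)))
    rw [insert_erase (mem_univ f)] at h
    exact h
  have h4 : Th p (univ.erase f) (fun V => Th g (univ \ V) (fun G =>
        F.ind (Need (n / (1 - g)) (lev B j) D V G f))) = 0 := by
    have : Th p (univ.erase f) (fun V => Th g (univ \ V) (fun G =>
        F.ind (Need (n / (1 - g)) (lev B j) D V G f))) = Th p (univ.erase f) (fun _ => 0) := by
      refine TH_congr (fun _ _ => rfl) fun V hV => ?_
      have hf : f ∉ V := fun h => notMem_erase f univ (hV h)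
      have : ∀ G, F.ind (Need (n / (1 - g)) (lev B j) D V G f) = 0 := by
        intro G
        unfold F.ind
        rw [if_neg]
        exact fun h => hf h.1
      simp only [this]
      exact TH_const _ _ _
    rw [this]
    exact TH_const _ _ _
  rw [h3, h4, mul_zero, zero_add]
  have h5 : ∀ V, V ⊆ univ.erase f → Th g (univ \ insert f V) (fun G =>
        F.ind (Need (n / (1 - g)) (lev B j) D (insert f V) G f)) ≤
      Th g (univ.erase f \ V) (fun G => F.ind
        (∃ Y ⊆ V, Y.card ≤ (lev B j).κ ∧ δ' ≤ Th (n / (1 - g)) ((univ.erase f \ V) \ G)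
          (fun N => F.ind ((fun U => D (insert f U) ∧ ¬ D U) (Y ∪ G ∪ N))))) := by
    intro V hV
    have e1 : univ \ insert f V = univ.erase f \ V := by
      ext x
      simp only [mem_sdiff, mem_univ, true_and, mem_insert, mem_erase, not_or, and_true]
    rw [e1]
    refine Th_mono hg0.le (by linarith) _ fun G hG => ind_mono ?_
    rintro ⟨-, Y, hYV, hfY, hg1, hg2⟩
    rw [e1] at hg1 hg2
    refine ⟨Y.erase f, ?_, ?_, need_gap ht0 ht1 hδ hfY hg1 hg2⟩
    · intro x hx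
      rcases mem_insert.1 (hYV (mem_of_mem_erase hx)) with h | h
      · exact absurd h (ne_of_mem_erase hx)
      · exact h
    · exact (card_le_card (erase_subset _ _)).trans hg1.1
  have h6 := Th_mono hp0.le (by linarith) (univ.erase f) h5
  have h7 : 0 ≤ Th p (univ.erase f) (fun V => Th g (univ \ insert f V) (fun G =>
        F.ind (Need (n / (1 - g)) (lev B j) D (insert f V) G f))) :=
    Th_nonneg hp0.le (by linarith) _ fun V => Th_nonneg hg0.le (by linarith) _
      fun G => ind_nonneg _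
  nlinarith

/-- the gap of the probability of the pools -/
theorem vio_gap {E : Type} [Fintype E] {g t : ℝ} (hg0 : 0 ≤ g) (hg1 : g ≤ 1) {l : Lv}
    (hτ : 0 < l.τ) {D : Finset E → Prop} {V X : Finset E} {b : E} (hXV : X ⊆ V)
    (hbX : b ∈ X) (h1 : vio g t l D (univ \ V) X) (h2 : ¬ vio g t l D (univ \ V) (X.erase b)) :
    l.τ / ((l.Z : ℝ) + 1) ^ 2 ≤ Th g (univ \ V) (fun G => F.ind (Need t l D V G b)) := by
  obtain ⟨hc, hle⟩ := h1
  have hce : (X.erase b).card = X.card - 1 := card_erase_of_mem hbX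
  have hpos : 0 < X.card := card_pos.2 ⟨b, hbX⟩
  have h3 : l.τ / (((X.erase b).card : ℝ) + 1) < ff g t l D (univ \ V) (X.erase b) := by
    by_contra hcon
    exact h2 ⟨by omega, not_lt.1 hcon⟩
  have hcast : (((X.erase b).card : ℝ) + 1) = X.card := by
    rw [hce]
    have : X.card - 1 + 1 = X.card := by omega
    exact_mod_cast this
  rw [hcast] at h3
  have h4 : ff g t l D (univ \ V) (X.erase b) ≤ ff g t l D (univ \ V) X +
      Th g (univ \ V) (fun G => F.ind (Need t l D V G b)) := by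
    unfold ff Th
    rw [← TH_add]
    refine TH_mono (fun _ => hg0) (fun _ => hg1) _ fun G _ => ?_
    by_cases u : ∃ Y ⊆ X.erase b, good t l D (univ \ V) G Y
    · have e : F.ind (¬ ∃ Y ⊆ X.erase b, good t l D (univ \ V) G Y) = 0 := if_neg (not_not.2 u)
      rw [e]
      exact add_nonneg (ind_nonneg _) (ind_nonneg _)
    · by_cases v : ∃ Y ⊆ X, good t l D (univ \ V) G Y
      · obtain ⟨Y, hYX, hY⟩ := v
        have hbY : b ∈ Y := by
          by_contra hb
          exact u ⟨Y, fun x hx => mem_erase.2 ⟨fun h => hb (h ▸ hx), hYX hx⟩, hY⟩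
        have hN : Need t l D V G b := by
          refine ⟨hXV hbX, Y, hYX.trans hXV, hbY, hY, fun hY' => ?_⟩
          exact u ⟨Y.erase b, erase_subset_erase b hYX, hY'⟩
        have e : F.ind (Need t l D V G b) = 1 := if_pos hN
        have e' : F.ind (¬ ∃ Y ⊆ X.erase b, good t l D (univ \ V) G Y) = 1 := if_pos u
        rw [e, e']
        have := ind_nonneg (¬ ∃ Y ⊆ X, good t l D (univ \ V) G Y)
        linarith
      · have e : F.ind (¬ ∃ Y ⊆ X, good t l D (univ \ V) G Y) = 1 := if_pos v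
        have e' : F.ind (¬ ∃ Y ⊆ X.erase b, good t l D (univ \ V) G Y) = 1 := if_pos u
        rw [e, e']
        have := ind_nonneg (Need t l D V G b)
        linarith
  have hX1 : (0 : ℝ) < X.card := by exact_mod_cast hpos
  have hX2 : (X.card : ℝ) ≤ l.Z := by exact_mod_cast hc
  have h5 : l.τ / ((l.Z : ℝ) + 1) ^ 2 ≤ l.τ / X.card - l.τ / (X.card + 1) := by
    have e2 : l.τ / (X.card : ℝ) - l.τ / (X.card + 1) = l.τ / (X.card * (X.card + 1)) := by
      field_simp
      ring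
    rw [e2]
    refine div_le_div_of_nonneg_left hτ.le (by positivity) ?_
    nlinarith
  linarith

theorem rowR (hCtx : RowCtx) : RowR := by
  intro p g n lam B hC E _ D hD j b
  have hp0 := hC.p0
  have hp1 := hC.p1
  have hg0 := hC.g0
  have hgn := hC.gn
  have hn0 := hC.n0
  have hn1 := hC.n1
  have hB := hC.B16
  have hxx := xx_pos (B := B) (by omega) j
  have h1x : (1 : ℝ) ≤ xx B j := by
    refine le_trans ?_ (xx_ge hB j)
    exact one_le_pow₀ (by norm_num)
  have h2x : (2 : ℝ) ≤ xx B j := by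
    refine le_trans ?_ (xx_ge hB j)
    calc (2 : ℝ) ≤ 16 ^ 1 := by norm_num
      _ ≤ _ := pow_le_pow_right₀ (by norm_num) (Nat.one_le_pow _ _ (by norm_num))
  have hτ : 0 < (lev B j).τ := by
    show 0 < ((xx B j : ℝ))⁻¹
    positivity
  have hctx := hCtx p g n lam B hC E D hD j b
  set J := JJ ((1 - p) * (g + n)) D b with hJ
  have hJ0 : 0 ≤ J := by
    rw [hJ]
    unfold JJ
    refine Th_nonneg (mul_nonneg (by linarith) (by linarith)) ?_ _ fun _ => ind_nonneg _
    nlinarith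
  set c : ℝ := (lev B j).τ / (((lev B j).Z : ℝ) + 1) ^ 2 with hc
  have hc0 : 0 < c := by rw [hc]; positivity
  have h1 : c * Th p univ (fun V => F.ind (∃ X ⊆ V, b ∈ X ∧
      vio g (n / (1 - g)) (lev B j) D (univ \ V) X ∧
      ∀ X' ⊂ X, ¬ vio g (n / (1 - g)) (lev B j) D (univ \ V) X')) ≤
      ((xx B j : ℝ) ^ 23) ^ 1200 * J ^ 600 := by
    refine le_trans ?_ hctx
    unfold Th
    rw [← TH_mul]
    refine TH_mono (fun _ => hp0.le) (fun _ => by linarith) _ fun V _ => ?_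
    by_cases h : ∃ X ⊆ V, b ∈ X ∧ vio g (n / (1 - g)) (lev B j) D (univ \ V) X ∧
      ∀ X' ⊂ X, ¬ vio g (n / (1 - g)) (lev B j) D (univ \ V) X'
    · have e : F.ind (∃ X ⊆ V, b ∈ X ∧ vio g (n / (1 - g)) (lev B j) D (univ \ V) X ∧
        ∀ X' ⊂ X, ¬ vio g (n / (1 - g)) (lev B j) D (univ \ V) X') = 1 := if_pos h
      rw [e, mul_one]
      obtain ⟨X, hXV, hbX, hv, hmin⟩ := h
      exact vio_gap hg0.le (by linarith) hτ hXV hbX hv (hmin _ (erase_ssubset hbX))
    · have e : F.ind (∃ X ⊆ V, b ∈ X ∧ vio g (n / (1 - g)) (lev B j) D (univ \ V) X ∧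
        ∀ X' ⊂ X, ¬ vio g (n / (1 - g)) (lev B j) D (univ \ V) X') = 0 := if_neg h
      rw [e, mul_zero]
      exact Th_nonneg hg0.le (by linarith) _ fun _ => ind_nonneg _
  have h2 : 1 ≤ c * (xx B j : ℝ) ^ 325 := by
    have e1 : (lev B j).τ = ((xx B j : ℝ))⁻¹ := rfl
    have e2 : ((lev B j).Z : ℝ) = (xx B j : ℝ) ^ 161 := by
      show ((xx B j ^ 161 : ℕ) : ℝ) = _
      push_cast
      rfl
    rw [hc, e1, e2]
    have h3 : ((xx B j : ℝ) ^ 161 + 1) ^ 2 ≤ (xx B j : ℝ) ^ 324 := by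
      have h4 : (xx B j : ℝ) ^ 161 + 1 ≤ (xx B j : ℝ) ^ 162 := by
        have h5 : (1 : ℝ) ≤ (xx B j : ℝ) ^ 161 := one_le_pow₀ h1x
        have h6 : (xx B j : ℝ) ^ 162 = (xx B j : ℝ) ^ 161 * (xx B j : ℝ) := pow_succ _ _
        rw [h6]
        nlinarith
      calc ((xx B j : ℝ) ^ 161 + 1) ^ 2 ≤ ((xx B j : ℝ) ^ 162) ^ 2 :=
            pow_le_pow_left₀ (by positivity) h4 2
        _ = _ := by rw [← pow_mul]
    rw [div_mul_eq_mul_div, le_div_iff₀ (by positivity), one_mul]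
    have h7 : ((xx B j : ℝ))⁻¹ * (xx B j : ℝ) ^ 325 = (xx B j : ℝ) ^ 324 := by
      have : (xx B j : ℝ) ^ 325 = (xx B j : ℝ) * (xx B j : ℝ) ^ 324 := pow_succ' _ _
      rw [this, inv_mul_cancel_left₀ hxx.ne']
    rw [h7]
    exact h3
  have hP0 : 0 ≤ Th p univ (fun V => F.ind (∃ X ⊆ V, b ∈ X ∧
      vio g (n / (1 - g)) (lev B j) D (univ \ V) X ∧
      ∀ X' ⊂ X, ¬ vio g (n / (1 - g)) (lev B j) D (univ \ V) X')) :=
    Th_nonneg hp0.le (by linarith) _ fun _ => ind_nonneg _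
  calc Th p univ (fun V => F.ind (∃ X ⊆ V, b ∈ X ∧
      vio g (n / (1 - g)) (lev B j) D (univ \ V) X ∧
      ∀ X' ⊂ X, ¬ vio g (n / (1 - g)) (lev B j) D (univ \ V) X'))
      ≤ (c * (xx B j : ℝ) ^ 325) * Th p univ (fun V => F.ind (∃ X ⊆ V, b ∈ X ∧
      vio g (n / (1 - g)) (lev B j) D (univ \ V) X ∧
      ∀ X' ⊂ X, ¬ vio g (n / (1 - g)) (lev B j) D (univ \ V) X')) :=
        le_mul_of_one_le_left hP0 h2
    _ = (xx B j : ℝ) ^ 325 * (c * Th p univ (fun V => F.ind (∃ X ⊆ V, b ∈ X ∧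
      vio g (n / (1 - g)) (lev B j) D (univ \ V) X ∧
      ∀ X' ⊂ X, ¬ vio g (n / (1 - g)) (lev B j) D (univ \ V) X'))) := by ring
    _ ≤ (xx B j : ℝ) ^ 325 * (((xx B j : ℝ) ^ 23) ^ 1200 * J ^ 600) :=
        mul_le_mul_of_nonneg_left h1 (by positivity)
    _ = (xx B j : ℝ) ^ 27925 * J ^ 600 := by
        rw [← pow_mul, ← mul_assoc, ← pow_add]

end Vale.Agent.P331.H146
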